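import Vale.Agent.P170.Assemble
import Vale.Agent.P170.Link
import Vale.Agent.P170.Transfer

/-!
# P170: the satisfiability threshold conjecture for random `k`-SAT

For every `k ≥ 3` random `k`-SAT has a limiting threshold.
-/

namespace Vale.Agent.Results.P170.LimitingThreshold

open Filter Topology

/-- The proper `k`-clauses on the variables `0, …, n-1`: sets of `k` literals (a literal is a
variable together with a sign) on `k` distinct variables. -/
noncomputable def properClauses (k n : ℕ) : Finset (Finset (Fin n × Bool)) := by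
  classical
  exact Finset.univ.filter
    (fun C => C.card = k ∧ Set.InjOn Prod.fst (C : Set (Fin n × Bool)))

/-- The conjunction of the clauses `F 0, …, F (m-1)` is satisfiable: some assignment `a` makes
some literal of every clause true. -/
def Satisfiable {n m : ℕ} (F : Fin m → Finset (Fin n × Bool)) : Prop :=
  ∃ a : Fin n → Bool, ∀ i, ∃ l ∈ F i, a l.1 = l.2

/-- `P_{k,n}(m)`: the probability that the conjunction of `m` independent uniform proper
`k`-clauses is satisfiable, i.e. the number of satisfiable sequences of `m` proper `k`-clauses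
divided by the number of all sequences of `m` proper `k`-clauses. -/
noncomputable def satProb (k n m : ℕ) : ℝ :=
  (Nat.card {F : Fin m → Finset (Fin n × Bool) //
      (∀ i, F i ∈ properClauses k n) ∧ Satisfiable F} : ℝ)
    / ((properClauses k n).card : ℝ) ^ m

/-- `α` is a limiting threshold of random `k`-SAT. -/
def HasLimitingThreshold (k : ℕ) (α : ℝ) : Prop :=
  0 < α ∧
  (∀ c : ℝ, 0 ≤ c → c < α →
    Tendsto (fun n : ℕ => satProb k n ⌊c * n⌋₊) atTop (𝓝 1)) ∧
  (∀ c : ℝ, α < c →
    Tendsto (fun n : ℕ => satProb k n ⌊c * n⌋₊) atTop (𝓝 0))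

/-- **Satisfiability threshold conjecture**: for every `k ≥ 3`, random `k`-SAT has a limiting
threshold. -/
theorem result : ∀ k : ℕ, 3 ≤ k → ∃ α : ℝ, HasLimitingThreshold k α := by
  intro k hk
  obtain ⟨α, hα, h1, h0⟩ := _root_.P170.iid_threshold k hk
  have e : ∀ n : ℕ, 1 ≤ n → ∀ m, _root_.P170.p k n m = _root_.P170.pIid k n m :=
    fun n hn m => _root_.P170.p_eq_count k n m hn
  have h1' : ∀ c : ℝ, 0 ≤ c → c < α →
      Tendsto (fun n : ℕ => _root_.P170.pIid k n ⌊c * n⌋₊) atTop (𝓝 1) := by
    intro c hc hcα
    refine (h1 c hc hcα).congr' ?_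
    filter_upwards [eventually_ge_atTop 1] with n hn
    exact e n hn _
  have h0' : ∀ c : ℝ, α < c →
      Tendsto (fun n : ℕ => _root_.P170.pIid k n ⌊c * n⌋₊) atTop (𝓝 0) := by
    intro c hc
    refine (h0 c hc).congr' ?_
    filter_upwards [eventually_ge_atTop 1] with n hn
    exact e n hn _
  obtain ⟨g1, g0⟩ := _root_.P170.transfer k (by omega) α hα h1' h0'
  exact ⟨α, hα, g1, g0⟩

end Vale.Agent.Results.P170.LimitingThreshold
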