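import Vale.Agent.P170.Assemble
import Vale.Agent.P170.Link
import Vale.Agent.P170.Transfer

/-!
# P170: the satisfiability threshold conjecture for random `k`-SAT, both forms of the question

For every `k ≥ 3` random `k`-SAT has exactly one limiting threshold, and the sequences `r_k(n)`
of Friedgut's theorem are exactly the sequences that converge to it.
-/

namespace Vale.Agent.Results.P170.ThresholdBothForms

open Filter Topology

/-- The proper `k`-clauses on the variables `0, …, n-1`: sets of `k` literals (a literal is a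
variable together with a sign) on `k` distinct variables. -/
noncomputable def properClauses (k n : ℕ) : Finset (Finset (Fin n × Bool)) := by
  classical
  exact Finset.univ.filter
    (fun C => C.card = k ∧ Set.InjOn Prod.fst (C : Set (Fin n × Bool)))

/-- The conjunction of the clauses `F 0, …, F (m-1)` is satisfiable: some assignment `a` makes
some literal of every clause true. -/
def Satisfiable {n m : ℕ} (F : Fin m → Finset (Fin n × Bool)) : Prop :=
  ∃ a : Fin n → Bool, ∀ i, ∃ l ∈ F i, a l.1 = l.2

/-- `P_{k,n}(m)`: the number of satisfiable sequences of `m` proper `k`-clauses divided by the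
number of all sequences of `m` proper `k`-clauses. -/
noncomputable def satProb (k n m : ℕ) : ℝ :=
  (Nat.card {F : Fin m → Finset (Fin n × Bool) //
      (∀ i, F i ∈ properClauses k n) ∧ Satisfiable F} : ℝ)
    / ((properClauses k n).card : ℝ) ^ m

/-- `α` is a limiting threshold of random `k`-SAT. -/
def IsLimitingThreshold (k : ℕ) (α : ℝ) : Prop :=
  0 < α ∧
  (∀ c : ℝ, 0 ≤ c → c < α →
    Tendsto (fun n : ℕ => satProb k n ⌊c * n⌋₊) atTop (𝓝 1)) ∧
  (∀ c : ℝ, α < c →
    Tendsto (fun n : ℕ => satProb k n ⌊c * n⌋₊) atTop (𝓝 0))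

/-- `r` is a sequence as in Friedgut's theorem: for every `ε > 0`, `⌊(r(n) - ε) n⌋` clauses are
satisfiable with probability tending to `1` and `⌊(r(n) + ε) n⌋` clauses with probability tending
to `0`. -/
def IsSharpSequence (k : ℕ) (r : ℕ → ℝ) : Prop :=
  ∀ ε : ℝ, 0 < ε →
    Tendsto (fun n : ℕ => satProb k n ⌊(r n - ε) * n⌋₊) atTop (𝓝 1) ∧
    Tendsto (fun n : ℕ => satProb k n ⌊(r n + ε) * n⌋₊) atTop (𝓝 0)

theorem satProb_nonneg (k n m : ℕ) : 0 ≤ satProb k n m := by
  unfold satProb; positivity

theorem satProb_succ_le (k n m : ℕ) : satProb k n (m + 1) ≤ satProb k n m := by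
  classical
  set c : ℕ := (properClauses k n).card with hc
  set A : ℕ := Nat.card {F : Fin (m + 1) → Finset (Fin n × Bool) //
      (∀ i, F i ∈ properClauses k n) ∧ Satisfiable F} with hA
  set B : ℕ := Nat.card {F : Fin m → Finset (Fin n × Bool) //
      (∀ i, F i ∈ properClauses k n) ∧ Satisfiable F} with hB
  have key : A ≤ B * c := by
    have hinj : Function.Injective
        (fun F : {F : Fin (m + 1) → Finset (Fin n × Bool) //
            (∀ i, F i ∈ properClauses k n) ∧ Satisfiable F} =>
          ((⟨fun i => F.1 i.castSucc, fun i => F.2.1 i.castSucc, by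
              obtain ⟨a, ha⟩ := F.2.2
              exact ⟨a, fun i => ha i.castSucc⟩⟩ :
            {F : Fin m → Finset (Fin n × Bool) //
              (∀ i, F i ∈ properClauses k n) ∧ Satisfiable F}),
           (⟨F.1 (Fin.last m), F.2.1 (Fin.last m)⟩ : {C // C ∈ properClauses k n}))) := by
      rintro ⟨F, hF⟩ ⟨G, hG⟩ h
      simp only [Prod.mk.injEq, Subtype.mk.injEq] at h
      obtain ⟨h1, h2⟩ := h
      apply Subtype.ext
      funext i
      refine Fin.lastCases ?_ (fun j => ?_) i
      · exact h2
      · exact congrFun h1 j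
    have := Nat.card_le_card_of_injective _ hinj
    rw [Nat.card_prod, Nat.card_eq_fintype_card (α := {C // C ∈ properClauses k n}),
      Fintype.card_coe] at this
    exact this
  have keyR : (A : ℝ) ≤ B * c := by exact_mod_cast key
  change (A : ℝ) / (c : ℝ) ^ (m + 1) ≤ (B : ℝ) / (c : ℝ) ^ m
  rcases Nat.eq_zero_or_pos c with h0 | hpos
  · have : (A : ℝ) ≤ 0 := by rw [h0] at keyR; simpa using keyR
    have h2 : (A : ℝ) / (c : ℝ) ^ (m + 1) ≤ 0 := div_nonpos_of_nonpos_of_nonneg this (by positivity)
    exact h2.trans (by positivity)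
  · have hc0 : (0 : ℝ) < c := by exact_mod_cast hpos
    rw [div_le_div_iff₀ (by positivity) (by positivity), pow_succ]
    calc (A : ℝ) * (c : ℝ) ^ m ≤ B * c * (c : ℝ) ^ m := by gcongr
      _ = B * ((c : ℝ) ^ m * c) := by ring

theorem satProb_anti (k n : ℕ) : Antitone (satProb k n) :=
  antitone_nat_of_succ_le (satProb_succ_le k n)

theorem satProb_zero (k n : ℕ) : satProb k n 0 = 1 := by
  classical
  unfold satProb
  have : Nat.card {F : Fin 0 → Finset (Fin n × Bool) //
      (∀ i, F i ∈ properClauses k n) ∧ Satisfiable F} = 1 := by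
    rw [Nat.card_eq_one_iff_unique]
    refine ⟨⟨fun a b => Subtype.ext (Subsingleton.elim _ _)⟩, ⟨⟨fun i => i.elim0, ?_, ?_⟩⟩⟩
    · intro i; exact i.elim0
    · exact ⟨fun _ => true, fun i => i.elim0⟩
  rw [this]; simp

theorem satProb_le_one (k n m : ℕ) : satProb k n m ≤ 1 := by
  rw [← satProb_zero k n]; exact satProb_anti k n (Nat.zero_le m)

theorem seq_iff (k : ℕ) (α : ℝ) (h : IsLimitingThreshold k α) (r : ℕ → ℝ) :
    IsSharpSequence k r ↔ Tendsto r atTop (𝓝 α) := by
  obtain ⟨hα, h1, h0⟩ := h
  constructor
  · intro hr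
    rw [tendsto_order]
    constructor
    · intro b hb
      set ε := α - b with hε
      have hε0 : 0 < ε := by rw [hε]; linarith
      have hA := (hr (ε / 2) (by linarith)).2
      have hc : max (α - ε / 2) 0 < α := max_lt (by linarith) hα
      have hB := h1 (max (α - ε / 2) 0) (le_max_right _ _) hc
      filter_upwards [hA.eventually_lt_const (show (0:ℝ) < 1 / 2 by norm_num),
        hB.eventually_const_lt (show (1 / 2 : ℝ) < 1 by norm_num),
        eventually_ge_atTop 1] with n hn1 hn2 hn3
      have hn0 : (0:ℝ) < n := by exact_mod_cast hn3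
      by_contra hcon
      push Not at hcon
      have hle : (r n + ε / 2) * n ≤ max (α - ε / 2) 0 * n := by
        have : r n + ε / 2 ≤ α - ε / 2 := by rw [hε] at *; linarith
        exact mul_le_mul_of_nonneg_right (this.trans (le_max_left _ _)) hn0.le
      have := satProb_anti k n (Nat.floor_le_floor hle)
      linarith
    · intro b hb
      set ε := b - α with hε
      have hε0 : 0 < ε := by rw [hε]; linarith
      have hA := (hr (ε / 2) (by linarith)).1
      have hB := h0 (α + ε / 2) (by linarith)
      filter_upwards [hA.eventually_const_lt (show (1 / 2 : ℝ) < 1 by norm_num),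
        hB.eventually_lt_const (show (0:ℝ) < 1 / 2 by norm_num),
        eventually_ge_atTop 1] with n hn1 hn2 hn3
      have hn0 : (0:ℝ) < n := by exact_mod_cast hn3
      by_contra hcon
      push Not at hcon
      have hle : (α + ε / 2) * n ≤ (r n - ε / 2) * n := by
        have : α + ε / 2 ≤ r n - ε / 2 := by rw [hε] at *; linarith
        exact mul_le_mul_of_nonneg_right this hn0.le
      have := satProb_anti k n (Nat.floor_le_floor hle)
      linarith
  · intro hr ε hε
    constructor
    · have hc : max (α - ε / 2) 0 < α := max_lt (by linarith) hα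
      have hB := h1 (max (α - ε / 2) 0) (le_max_right _ _) hc
      refine tendsto_of_tendsto_of_tendsto_of_le_of_le' hB tendsto_const_nhds ?_
        (Eventually.of_forall fun n => satProb_le_one k n _)
      filter_upwards [hr.eventually_lt_const (show α < α + ε / 2 by linarith)] with n hn
      have hle : (r n - ε) * n ≤ max (α - ε / 2) 0 * n :=
        mul_le_mul_of_nonneg_right ((by linarith : r n - ε ≤ α - ε / 2).trans (le_max_left _ _))
          (Nat.cast_nonneg n)
      exact satProb_anti k n (Nat.floor_le_floor hle)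
    · have hB := h0 (α + ε / 2) (by linarith)
      refine tendsto_of_tendsto_of_tendsto_of_le_of_le' tendsto_const_nhds hB
        (Eventually.of_forall fun n => satProb_nonneg k n _) ?_
      filter_upwards [hr.eventually_const_lt (show α - ε / 2 < α by linarith)] with n hn
      have hle : (α + ε / 2) * n ≤ (r n + ε) * n :=
        mul_le_mul_of_nonneg_right (by linarith) (Nat.cast_nonneg n)
      exact satProb_anti k n (Nat.floor_le_floor hle)

/-- **Satisfiability threshold conjecture, both forms**: for every `k ≥ 3`, random `k`-SAT has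
exactly one limiting threshold `α`, and a sequence `r` is a sequence as in Friedgut's theorem if
and only if it converges to `α`. -/
theorem result : ∀ k : ℕ, 3 ≤ k → ∃ α : ℝ, IsLimitingThreshold k α ∧
    (∀ β : ℝ, IsLimitingThreshold k β → β = α) ∧
    (∀ r : ℕ → ℝ, IsSharpSequence k r ↔ Tendsto r atTop (𝓝 α)) := by
  intro k hk
  obtain ⟨α, hα, h1, h0⟩ := _root_.P170.iid_threshold k hk
  have e : ∀ n : ℕ, 1 ≤ n → ∀ m, _root_.P170.p k n m = _root_.P170.pIid k n m :=
    fun n hn m => _root_.P170.p_eq_count k n m hn
  have h1' : ∀ c : ℝ, 0 ≤ c → c < α →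
      Tendsto (fun n : ℕ => _root_.P170.pIid k n ⌊c * n⌋₊) atTop (𝓝 1) := by
    intro c hc hcα
    refine (h1 c hc hcα).congr' ?_
    filter_upwards [eventually_ge_atTop 1] with n hn
    exact e n hn _
  have h0' : ∀ c : ℝ, α < c →
      Tendsto (fun n : ℕ => _root_.P170.pIid k n ⌊c * n⌋₊) atTop (𝓝 0) := by
    intro c hc
    refine (h0 c hc).congr' ?_
    filter_upwards [eventually_ge_atTop 1] with n hn
    exact e n hn _
  obtain ⟨g1, g0⟩ := _root_.P170.transfer k (by omega) α hα h1' h0'
  have hT : IsLimitingThreshold k α := ⟨hα, g1, g0⟩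
  refine ⟨α, hT, ?_, seq_iff k α hT⟩
  intro β hβ
  have h2 : IsSharpSequence k (fun _ => β) := (seq_iff k β hβ _).2 tendsto_const_nhds
  have h3 : Tendsto (fun _ : ℕ => β) atTop (𝓝 α) := (seq_iff k α hT _).1 h2
  exact tendsto_nhds_unique tendsto_const_nhds h3

end Vale.Agent.Results.P170.ThresholdBothForms
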