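import Vale.Agent.P170.Window

/-!
# P170: the satisfiability threshold conjecture for random `k`-SAT, with the width of the window

For every `k ≥ 3` random `k`-SAT has a limiting threshold `α`, and the satisfiability probability
drops from `1 - ε` to `ε` in a window of `O_ε(n^(2/3))` clauses around a location `μ(n)` with
`μ(n) / n → α`.
-/

namespace Vale.Agent.Results.P170.ThresholdWindow

open Filter Topology

/-- The proper `k`-clauses on the variables `0, …, n-1`: sets of `k` literals (a literal is a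
variable together with a sign) on `k` distinct variables. -/
noncomputable def properClauses (k n : ℕ) : Finset (Finset (Fin n × Bool)) := by
  classical
  exact Finset.univ.filter
    (fun C => C.card = k ∧ Set.InjOn Prod.fst (C : Set (Fin n × Bool)))

/-- The conjunction of the clauses `F 0, …, F (m-1)` is satisfiable: some assignment `a` makes
some literal of every clause true. -/
def Satisfiable {n m : ℕ} (F : Fin m → Finset (Fin n × Bool)) : Prop :=
  ∃ a : Fin n → Bool, ∀ i, ∃ l ∈ F i, a l.1 = l.2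

/-- `P_{k,n}(m)`: the number of satisfiable sequences of `m` proper `k`-clauses divided by the
number of all sequences of `m` proper `k`-clauses. -/
noncomputable def satProb (k n m : ℕ) : ℝ :=
  (Nat.card {F : Fin m → Finset (Fin n × Bool) //
      (∀ i, F i ∈ properClauses k n) ∧ Satisfiable F} : ℝ)
    / ((properClauses k n).card : ℝ) ^ m

/-- **Satisfiability threshold conjecture with a window of width `O(n^(2/3))`**: for every
`k ≥ 3` there are `α > 0` and real numbers `μ n` such that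
(1) `P_{k,n}(⌊c n⌋) → 1` for `0 ≤ c < α`, (2) `P_{k,n}(⌊c n⌋) → 0` for `c > α`,
(3) `μ n / n → α`, and (4) for every `ε > 0` there is `C` such that for all large `n` and all `m`:
`P_{k,n}(m) ≥ 1 - ε` if `m ≤ μ n - C n^(2/3)`, and `P_{k,n}(m) ≤ ε` if `m ≥ μ n + C n^(2/3)`. -/
theorem result : ∀ k : ℕ, 3 ≤ k → ∃ (α : ℝ) (μ : ℕ → ℝ), 0 < α ∧
    (∀ c : ℝ, 0 ≤ c → c < α → Tendsto (fun n : ℕ => satProb k n ⌊c * n⌋₊) atTop (𝓝 1)) ∧
    (∀ c : ℝ, α < c → Tendsto (fun n : ℕ => satProb k n ⌊c * n⌋₊) atTop (𝓝 0)) ∧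
    Tendsto (fun n : ℕ => μ n / n) atTop (𝓝 α) ∧
    ∀ ε : ℝ, 0 < ε → ∃ C : ℝ, ∀ᶠ n : ℕ in atTop, ∀ m : ℕ,
      ((m : ℝ) ≤ μ n - C * (n : ℝ) ^ (2 / 3 : ℝ) → 1 - ε ≤ satProb k n m) ∧
      (μ n + C * (n : ℝ) ^ (2 / 3 : ℝ) ≤ m → satProb k n m ≤ ε) := by
  intro k hk
  obtain ⟨α, hα, h1, h0, μ, hμ, hw⟩ := _root_.P170.window k hk
  exact ⟨α, μ, hα, h1, h0, hμ, hw⟩

end Vale.Agent.Results.P170.ThresholdWindow
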